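import Vale.Agent.P198.Defs

/-! The abstract boundary dynamics, tiles and combinatorial modulus. -/

open Set Metric Topology Filter

namespace Vale.Agent.P198

/-- The conclusion of the theorem. -/
def Geom (G : Type*) [Group G] : Prop :=
  ∃ ρ : G →* Equiv.Perm H3, (∀ g x y, hdist (ρ g x) (ρ g y) = hdist x y) ∧
    (∀ K : Set H3, IsCompact K → {g | (ρ g '' K ∩ K).Nonempty}.Finite) ∧
    (∃ K : Set H3, IsCompact K ∧ ∀ x, ∃ g, ∃ y ∈ K, ρ g y = x) ∧ (ρ.ker : Set G).Finite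

/-- A hyperbolic group acting on its boundary sphere with a visual metric; `q ^ len g` is the size of
the shadow of `g` and `pt g` its centre. -/
structure Dyn (G Z : Type*) [Group G] [MetricSpace Z] [MulAction G Z] where
  len : G → ℕ
  q : ℝ
  C : ℝ
  A : ℝ
  pt : G → Z
  q_pos : 0 < q
  q_lt : q < 1
  one_le_C : 1 ≤ C
  two_le_A : 2 ≤ A
  diam : ∀ x y : Z, dist x y ≤ C
  len_inv : ∀ g, len g⁻¹ = len g
  len_mul : ∀ g h, len (g * h) ≤ len g + len h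
  fin : ∀ n, {g | len g ≤ n}.Finite
  card : ∀ n, ({g | len g ≤ n}.ncard : ℝ) ≤ A ^ (n + 1)
  mob_le : ∀ (g : G) (x y : Z), dist (g⁻¹ • x) (g⁻¹ • y) *
    (max (dist x (pt g)) (q ^ len g) * max (dist y (pt g)) (q ^ len g)) ≤ C * (dist x y * q ^ len g)
  mob_ge : ∀ (g : G) (x y : Z), dist x y * q ^ len g ≤ C * (dist (g⁻¹ • x) (g⁻¹ • y) *
    (max (dist x (pt g)) (q ^ len g) * max (dist y (pt g)) (q ^ len g)))
  inv_le : ∀ (g : G) (x : Z),
    max (dist (g • x) (pt g)) (q ^ len g) * max (dist x (pt g⁻¹)) (q ^ len g) ≤ C * q ^ len g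
  inv_ge : ∀ (g : G) (x : Z),
    q ^ len g ≤ C * (max (dist (g • x) (pt g)) (q ^ len g) * max (dist x (pt g⁻¹)) (q ^ len g))
  surj : ∀ (z : Z) (n : ℕ), ∃ g, len g = n ∧ dist (pt g) z ≤ C * q ^ n
  loc : ∀ L : ℝ, ∃ N : ℕ, ∀ (z : Z) (n : ℕ), {g | len g = n ∧ dist (pt g) z ≤ L * q ^ n}.ncard ≤ N
  pair : ∀ g h, dist (pt g) (pt h) ^ 2 * q ^ len (g⁻¹ * h) ≤ C * (q ^ len g * q ^ len h)
  mid : ∃ N : ℕ, ∀ (x y : G) (l : ℕ),
    {g | len g = l ∧ len (g⁻¹ * x) = len x ∧ len (g * y) = len y}.ncard ≤ N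
  chart : ∀ b : Z, ∃ ψ : ℂ → Z, IsOpenEmbedding ψ ∧ range ψ = {b}ᶜ
  ne : Nonempty Z

variable {G Z : Type*} [Group G] [MetricSpace Z] [MulAction G Z]

namespace Dyn

variable (D : Dyn G Z)

theorem finL (n : ℕ) : {g | D.len g = n}.Finite := (D.fin n).subset fun _ h => le_of_eq h

/-- The nodes of level `n`. -/
noncomputable def lev (n : ℕ) : Finset G := (D.finL n).toFinset

/-- The tile of a node. -/
def tile (g : G) : Set Z := ball (D.pt g) (2 * D.C * D.q ^ D.len g)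

open Classical in
/-- The nodes of level `n` within `L q ^ n` of `S`. -/
noncomputable def near (n : ℕ) (L : ℝ) (S : Set Z) : Finset G :=
  (D.lev n).filter fun g => ∃ x ∈ S, dist x (D.pt g) < L * D.q ^ n

/-- The nodes of level `n` whose tile meets `S`. -/
noncomputable def hit (n : ℕ) (S : Set Z) : Finset G := D.near n (2 * D.C) S

/-- Length of a set. -/
noncomputable def ln (n : ℕ) (ρ : G → ℝ) (S : Set Z) : ℝ := ∑ g ∈ D.hit n S, ρ g

/-- Mass of a weight. -/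
noncomputable def mass (n : ℕ) (ρ : G → ℝ) : ℝ := ∑ g ∈ D.lev n, ρ g ^ 2

/-- Admissible weight. -/
def Adm (n : ℕ) (ρ : G → ℝ) (Γ : Set (Set Z)) : Prop :=
  (∀ g, 0 ≤ ρ g) ∧ ∀ A ∈ Γ, 1 ≤ D.ln n ρ A

/-- Combinatorial modulus. -/
noncomputable def Mod (n : ℕ) (Γ : Set (Set Z)) : ℝ :=
  sInf {m | ∃ ρ, D.Adm n ρ Γ ∧ m = D.mass n ρ}

open Classical in
/-- Sum of a weight over the neighbours. -/
noncomputable def spread (n : ℕ) (L : ℝ) (τ : G → ℝ) (h : G) : ℝ :=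
  ∑ g ∈ (D.lev n).filter fun g => dist (D.pt g) (D.pt h) < L * D.q ^ n, τ g

theorem mem_lev {n : ℕ} {g : G} : g ∈ D.lev n ↔ D.len g = n := by simp [lev]

theorem mem_near {n : ℕ} {L : ℝ} {S : Set Z} {g : G} :
    g ∈ D.near n L S ↔ D.len g = n ∧ ∃ x ∈ S, dist x (D.pt g) < L * D.q ^ n := by
  classical
  simp [near, mem_lev]

theorem mem_hit {n : ℕ} {S : Set Z} {g : G} :
    g ∈ D.hit n S ↔ D.len g = n ∧ ∃ x ∈ S, dist x (D.pt g) < 2 * D.C * D.q ^ n := D.mem_near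

theorem near_subset (n : ℕ) (L : ℝ) (S : Set Z) : D.near n L S ⊆ D.lev n :=
  fun _ h => D.mem_lev.2 (D.mem_near.1 h).1

theorem hit_subset (n : ℕ) (S : Set Z) : D.hit n S ⊆ D.lev n := D.near_subset _ _ _

theorem near_mono (n : ℕ) {L L' : ℝ} {S S' : Set Z} (hL : L ≤ L') (h : S ⊆ S') :
    D.near n L S ⊆ D.near n L' S' := by
  intro g hg
  obtain ⟨h1, x, hx, h2⟩ := D.mem_near.1 hg
  exact D.mem_near.2 ⟨h1, x, h hx,
    h2.trans_le (mul_le_mul_of_nonneg_right hL (pow_pos D.q_pos n).le)⟩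

theorem hit_mono (n : ℕ) {S S' : Set Z} (h : S ⊆ S') : D.hit n S ⊆ D.hit n S' :=
  D.near_mono n le_rfl h

theorem ln_mono (n : ℕ) {ρ : G → ℝ} (hρ : ∀ g, 0 ≤ ρ g) {S S' : Set Z} (h : S ⊆ S') :
    D.ln n ρ S ≤ D.ln n ρ S' :=
  Finset.sum_le_sum_of_subset_of_nonneg (D.hit_mono n h) fun g _ _ => hρ g

theorem qpow_pos (n : ℕ) : 0 < D.q ^ n := pow_pos D.q_pos n

theorem qpow_le_one (n : ℕ) : D.q ^ n ≤ 1 := pow_le_one₀ D.q_pos.le D.q_lt.le

theorem C_pos : 0 < D.C := lt_of_lt_of_le one_pos D.one_le_C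

theorem qpow_tendsto : Tendsto (fun n : ℕ => D.q ^ n) atTop (𝓝 0) :=
  tendsto_pow_atTop_nhds_zero_of_lt_one D.q_pos.le D.q_lt

theorem ev_small (L ε : ℝ) (hε : 0 < ε) : ∀ᶠ n : ℕ in atTop, L * D.q ^ n < ε := by
  have := D.qpow_tendsto.const_mul L
  rw [mul_zero] at this
  exact this.eventually (gt_mem_nhds hε)

theorem exists_hit (n : ℕ) (x : Z) :
    ∃ g, D.len g = n ∧ dist x (D.pt g) < 2 * D.C * D.q ^ n := by
  obtain ⟨g, h1, h2⟩ := D.surj x n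
  refine ⟨g, h1, ?_⟩
  rw [dist_comm]
  have := mul_pos D.C_pos (D.qpow_pos n)
  linarith

/-- A node whose shadow has size about `s` and centre near `z`. -/
theorem zoom (z : Z) {s : ℝ} (h0 : 0 < s) (h1 : s ≤ 1) :
    ∃ h, s ≤ D.q ^ D.len h ∧ D.q * D.q ^ D.len h < s ∧ dist (D.pt h) z ≤ D.C * D.q ^ D.len h := by
  obtain ⟨n, hn1, hn2⟩ := exists_nat_pow_near_of_lt_one h0 h1 D.q_pos D.q_lt
  obtain ⟨h, e, hh⟩ := D.surj z n
  refine ⟨h, by rw [e]; exact hn2, by rw [e, ← pow_succ']; exact hn1, by rw [e]; exact hh⟩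

theorem card_lev (n : ℕ) : ((D.lev n).card : ℝ) ≤ D.A ^ (n + 1) := by
  refine le_trans ?_ (D.card n)
  have : (D.lev n).card = {g | D.len g = n}.ncard := by
    rw [lev, Set.ncard_eq_toFinset_card _ (D.finL n)]
  rw [this]
  exact_mod_cast Set.ncard_le_ncard (fun _ h => le_of_eq h) (D.fin n)

/-- Finset form of `loc`. -/
theorem loc' (L : ℝ) : ∃ N : ℕ, ∀ (z : Z) (n : ℕ) (T : Finset G),
    (∀ g ∈ T, D.len g = n ∧ dist (D.pt g) z ≤ L * D.q ^ n) → T.card ≤ N := by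
  obtain ⟨N, hN⟩ := D.loc L
  refine ⟨N, fun z n T hT => le_trans ?_ (hN z n)⟩
  rw [← Set.ncard_coe_finset]
  exact Set.ncard_le_ncard (fun g hg => hT g hg) ((D.finL n).subset fun g hg => hg.1)

include D in
theorem lip (g : G) : ∃ L : ℝ, 0 < L ∧ ∀ x y : Z, dist (g • x) (g • y) ≤ L * dist x y := by
  have hq := D.qpow_pos (D.len g⁻¹)
  refine ⟨D.C / D.q ^ D.len g⁻¹, div_pos D.C_pos hq, fun x y => ?_⟩
  have h := D.mob_le g⁻¹ x y
  rw [inv_inv] at h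
  have h1 : D.q ^ D.len g⁻¹ * D.q ^ D.len g⁻¹ ≤
      max (dist x (D.pt g⁻¹)) (D.q ^ D.len g⁻¹) * max (dist y (D.pt g⁻¹)) (D.q ^ D.len g⁻¹) :=
    mul_le_mul (le_max_right _ _) (le_max_right _ _) hq.le (hq.le.trans (le_max_right _ _))
  have h2 := (mul_le_mul_of_nonneg_left h1 (dist_nonneg (x := g • x) (y := g • y))).trans h
  rw [div_mul_eq_mul_div, le_div_iff₀ hq]
  have h3 : dist (g • x) (g • y) * D.q ^ D.len g⁻¹ * D.q ^ D.len g⁻¹ ≤
      D.C * dist x y * D.q ^ D.len g⁻¹ := by linarith [mul_assoc (dist (g • x) (g • y)) (D.q ^ D.len g⁻¹) (D.q ^ D.len g⁻¹), mul_assoc D.C (dist x y) (D.q ^ D.len g⁻¹)]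
  exact le_of_mul_le_mul_right h3 hq

include D in
theorem cont_smul (g : G) : Continuous fun x : Z => g • x := by
  obtain ⟨L, hL, h⟩ := D.lip g
  exact (LipschitzWith.of_dist_le_mul (K := ⟨L, hL.le⟩) h).continuous

end Dyn

/-- Sets containing a path between two points at distance at least `δ`. -/
def Big (Z : Type*) [MetricSpace Z] (δ : ℝ) : Set (Set Z) :=
  {A | ∃ x y, JoinedIn A x y ∧ δ ≤ dist x y}

/-- The closed annulus. -/
def ann {Z : Type*} [MetricSpace Z] (z : Z) (s : ℝ) : Set Z := {y | s ≤ dist y z ∧ dist y z ≤ 2 * s}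

/-- Every annulus has a test weight of mass at most `B` at level `n`. -/
def Dyn.TestAt (D : Dyn G Z) (n : ℕ) (B : ℝ) : Prop :=
  ∀ (z : Z) (s : ℝ), D.q ^ n ≤ s → ∃ ρ : G → ℝ, (∀ g, 0 ≤ ρ g) ∧
    (∀ g, ρ g ≠ 0 → g ∈ D.hit n (ann z s)) ∧ D.mass n ρ ≤ B ∧
    ∀ A x y, JoinedIn A x y → dist x z ≤ s → 2 * s ≤ dist y z → 1 ≤ D.ln n ρ A

/-- Bounded modulus: the output of part I. -/
def Dyn.Tst (D : Dyn G Z) : Prop := ∃ B : ℝ, 0 < B ∧ ∀ n, D.TestAt n B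

/-! ### Plane sets -/

def rect (a b c d : ℝ) : Set ℂ := {w | a ≤ w.re ∧ w.re ≤ b ∧ c ≤ w.im ∧ w.im ≤ d}

def strip (a b : ℝ) : Set ℂ := {w | a ≤ w.re ∧ w.re ≤ b}

/-- A compact path connected set crossing the strip. -/
structure Crs (a b : ℝ) (A : Set ℂ) : Prop where
  cpt : IsCompact A
  conn : IsPathConnected A
  sub : A ⊆ strip a b
  left : ∃ x ∈ A, x.re = a
  right : ∃ x ∈ A, x.re = b

/-- The points of the strip joined, off `A`, to a point above `A`. -/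
def Up (a b : ℝ) (A : Set ℂ) : Set ℂ :=
  {w | ∃ y, JoinedIn (strip a b \ A) w y ∧ ∀ z ∈ A, z.im < y.im}

/-- The period of the exponential. -/
noncomputable def TT : ℂ := 2 * Real.pi * Complex.I

/-- Vertical translate. -/
noncomputable def sh (k : ℤ) (A : Set ℂ) : Set ℂ := (fun w => w + k * TT) '' A

/-- The winding count of a point with respect to the translates of `A`. -/
noncomputable def wind (a b : ℝ) (A : Set ℂ) (w : ℂ) : ℤ :=
  ({k : ℤ | 0 ≤ k ∧ w ∈ Up a b (sh k A)}.ncard : ℤ) - ({k : ℤ | k < 0 ∧ w ∉ Up a b (sh k A)}.ncard : ℤ)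

/-! ### Differential operators in the plane -/

noncomputable def dx (ψ : ℂ → ℝ) (p : ℂ) : ℝ := fderiv ℝ ψ p 1
noncomputable def dy (ψ : ℂ → ℝ) (p : ℂ) : ℝ := fderiv ℝ ψ p Complex.I

/-- The constant coefficient operator. -/
noncomputable def LL (a b c : ℝ) (ψ : ℂ → ℝ) (p : ℂ) : ℝ :=
  a * dx (dx ψ) p + 2 * b * dx (dy ψ) p + c * dy (dy ψ) p

/-- The Dirichlet energy. -/
noncomputable def Dir (ψ : ℂ → ℝ) : ℝ := ∫ p, (dx ψ p ^ 2 + dy ψ p ^ 2)

/-- A global chart `h` of the complement of `b`. -/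
structure GCh (Z : Type*) [MetricSpace Z] where
  b : Z
  h : Z → ℂ
  k : ℂ → Z
  h_cont : ContinuousOn h {b}ᶜ
  k_cont : Continuous k
  k_ne : ∀ w, k w ≠ b
  hk : ∀ w, h (k w) = w
  kh : ∀ x, x ≠ b → k (h x) = x
  k_inf : Tendsto k (cocompact ℂ) (𝓝 b)
  h_inf : Tendsto h (𝓝[≠] b) (cocompact ℂ)

/-- The group acts by maps preserving weak solutions of a constant coefficient equation. -/
def GCh.Weak (G : Type*) [Group G] [MulAction G Z] (c : GCh Z) (a11 a12 a22 : ℝ) : Prop :=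
  ∀ (g : G) (P ψ : ℂ → ℝ), ContDiff ℝ 2 P → (∀ p, LL a11 a12 a22 P p = 0) → ContDiff ℝ 2 ψ →
    HasCompactSupport ψ → (∀ w ∈ tsupport ψ, g • c.k w ≠ c.b) →
    ∫ w, P (c.h (g • c.k w)) * LL a11 a12 a22 ψ w = 0

/-- The group acts by holomorphic or antiholomorphic maps. -/
def GCh.Hol (G : Type*) [Group G] [MulAction G Z] (c : GCh Z) : Prop :=
  ∀ g : G, DifferentiableOn ℂ (fun w => c.h (g • c.k w)) {w | g • c.k w ≠ c.b} ∨
    DifferentiableOn ℂ (fun w => (starRingEnd ℂ) (c.h (g • c.k w))) {w | g • c.k w ≠ c.b}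

/-- A weakly quasisymmetric local chart: the output of part II-a. -/
structure Chart (Z : Type*) [MetricSpace Z] where
  x0 : Z
  r0 : ℝ
  f : Z → ℂ
  H : ℝ
  r0_pos : 0 < r0
  one_le_H : 1 ≤ H
  cont : ContinuousOn f (ball x0 r0)
  inj : InjOn f (ball x0 r0)
  opn : ∀ U : Set Z, IsOpen U → U ⊆ ball x0 r0 → IsOpen (f '' U)
  qb : ∀ x ∈ ball x0 r0, ∀ y ∈ ball x0 r0, ∀ z ∈ ball x0 r0,
    4 * dist y x ≤ dist z x → ‖f y - f x‖ ≤ H * ‖f z - f x‖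

end Vale.Agent.P198
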