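import Mathlib

/-! Definitions used in the statement for P198. -/

open Set

namespace Vale.Agent.P198

variable {G : Type*} [Group G]

/-- The Cayley graph of `G` with respect to `S`. -/
def cayley (S : Finset G) : SimpleGraph G :=
  SimpleGraph.fromRel fun g h => g⁻¹ * h ∈ S

/-- Every side of every geodesic triangle of the Cayley graph lies in the `δ`-neighbourhood of the
union of the other two sides. -/
def Thin (S : Finset G) (δ : ℕ) : Prop :=
  ∀ (x y z : G) (p : (cayley S).Walk x y) (q : (cayley S).Walk y z) (r : (cayley S).Walk z x),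
    p.length = (cayley S).dist x y → q.length = (cayley S).dist y z →
    r.length = (cayley S).dist z x →
    ∀ v ∈ p.support, ∃ w, (w ∈ q.support ∨ w ∈ r.support) ∧ (cayley S).dist v w ≤ δ

/-- Geodesic rays of the Cayley graph starting at the identity. -/
def Ray (S : Finset G) : Type _ :=
  {r : ℕ → G // r 0 = 1 ∧ ∀ i j, (cayley S).dist (r i) (r j) = Nat.dist i j}

/-- Pointwise (equivalently compact-open) convergence of rays, `G` being discrete. -/
instance (S : Finset G) : TopologicalSpace (Ray S) :=
  TopologicalSpace.induced (fun r => r.1) (@Pi.topologicalSpace ℕ (fun _ => G) fun _ => ⊥)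

/-- Two rays are at bounded Hausdorff distance. -/
def Asymp (S : Finset G) (r r' : Ray S) : Prop :=
  ∃ C : ℕ, (∀ i, ∃ j, (cayley S).dist (r.1 i) (r'.1 j) ≤ C) ∧
    ∀ j, ∃ i, (cayley S).dist (r.1 i) (r'.1 j) ≤ C

/-- The Gromov boundary: rays modulo bounded Hausdorff distance. -/
def Bdry (S : Finset G) : Type _ := Quot (Asymp S)

/-- The visual topology: the quotient of the topology on rays. -/
instance (S : Finset G) : TopologicalSpace (Bdry S) :=
  TopologicalSpace.coinduced (Quot.mk (Asymp S)) inferInstance

/-- The Minkowski form of signature `(3,1)`. -/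
def mink (x y : Fin 4 → ℝ) : ℝ := -(x 0 * y 0) + x 1 * y 1 + x 2 * y 2 + x 3 * y 3

/-- Hyperbolic 3-space, hyperboloid model. -/
abbrev H3 : Type := {x : Fin 4 → ℝ // mink x x = -1 ∧ 0 < x 0}

/-- The hyperbolic distance. -/
noncomputable def hdist (x y : H3) : ℝ := Real.arcosh (-mink x.1 y.1)

end Vale.Agent.P198
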