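import Vale.Agent.P198.Basic

/-! The five parts of the proof and the geometry of the boundary, as statements. -/

open Set Metric Topology Filter

namespace Vale.Agent.P198

universe u

/-- Part 0: the boundary of a hyperbolic group carries the abstract dynamics. -/
def Part0 (G : Type u) [Group G] : Prop :=
  ∀ (S : Finset G) (δ : ℕ), Subgroup.closure (S : Set G) = ⊤ → Thin S δ →
    Nonempty (Bdry S ≃ₜ Metric.sphere (0 : EuclideanSpace ℝ (Fin 3)) 1) →
    ∃ (Z : Type u) (_ : MetricSpace Z) (_ : CompactSpace Z) (_ : MulAction G Z),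
      Nonempty (Dyn G Z)

variable {G Z : Type*} [Group G] [MetricSpace Z] [MulAction G Z]

/-- Geometry of the boundary. -/
structure Geo (Z : Type*) [MetricSpace Z] where
  d0 : ℝ
  Λ : ℝ
  d0_pos : 0 < d0
  one_le_Λ : 1 ≤ Λ
  two : ∀ b : Z, ∃ x, d0 ≤ dist x b
  llc : ∀ x y : Z, JoinedIn (closedBall x (Λ * dist x y)) x y
  llc2 : ∀ (z x y : Z) (s : ℝ), 0 < s → Λ * s ≤ dist x z → Λ * s ≤ dist y z →
    JoinedIn (ball z s)ᶜ x y
  loc : LocallyPathConnectedSpace Z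
  pack : ∀ K : ℝ, ∃ N : ℕ, ∀ (z : Z) (r : ℝ) (T : Finset Z), 0 < r → (∀ x ∈ T, dist x z ≤ K * r) →
    (∀ x ∈ T, ∀ y ∈ T, x ≠ y → r ≤ dist x y) → T.card ≤ N

/-- Part II-a. -/
def PartIIa (D : Dyn G Z) : Prop := D.Tst → Nonempty (Chart Z)

/-- Part II-b. -/
def PartIIb (G Z : Type*) [Group G] [MetricSpace Z] [MulAction G Z] : Prop :=
  Nonempty (Chart Z) → ∃ (c : GCh Z) (a11 a12 a22 : ℝ), 0 < a11 ∧ a12 ^ 2 < a11 * a22 ∧
    c.Weak G a11 a12 a22

/-- Part II-c, first half. -/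
def PartIIc1 (G Z : Type*) [Group G] [MetricSpace Z] [MulAction G Z] : Prop :=
  ∀ (c : GCh Z) (a11 a12 a22 : ℝ), 0 < a11 → a12 ^ 2 < a11 * a22 → c.Weak G a11 a12 a22 →
    ∃ c' : GCh Z, c'.Hol G

/-- Part II-c, second half. -/
def PartIIc2 (G Z : Type*) [Group G] [MetricSpace Z] [MulAction G Z] : Prop :=
  ∀ c : GCh Z, c.Hol G → Geom G

end Vale.Agent.P198
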